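import Vale.Agent.H83.Stream.LinFinal
import Vale.Agent.H83.Stream.LinUpper

namespace Vale.Agent.Results.P309.A1_LinearMemoryTradeoff

open Vale.Agent.H83.Stream

/-- Sample complexity of noiseless Gaussian linear regression for linear-memory learners: learners
that keep `k` real vectors of `ℝ^d` (and any side memory), each new stored vector being a linear
combination of the old stored vectors and the current row, and that output a vector in the span of
the stored vectors. For `k ≥ 1`, `d ≥ k + 4` and `0 < ε ≤ 1`: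

(i) Upper bound (exact Kaczmarz in one slot): for every `T ≥ d ln(12/ε²)` there is such a learner
with horizon `T` that succeeds at accuracy `ε`.

(ii) Lower bound: every such learner with horizon `T` that succeeds at accuracy `ε` has
`T ≥ (d - k - 3) ln(2/(3 ε²))`. -/
theorem result (d k : ℕ) (hk : 1 ≤ k) (hd : k + 4 ≤ d) (ε : ℝ) (hε : 0 < ε) (hε1 : ε ≤ 1) :
    (∀ T : ℕ, (d : ℝ) * Real.log (12 / ε ^ 2) ≤ T → ∃ L : LinLearner d k T, L.Succeeds ε) ∧
    (∀ (T : ℕ) (L : LinLearner d k T), L.Succeeds ε →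
        ((d : ℝ) - k - 3) * Real.log (2 / (3 * ε ^ 2)) ≤ T) := by
  refine ⟨fun T hT => ?_, fun T L hL => L.horizon_ge hd hε hε1 hL⟩
  have hd1 : 1 ≤ d := by omega
  have hdR : (0 : ℝ) < d := by exact_mod_cast hd1
  refine exists_linLearner_succeeds d k T hd1 hk ε hε hε1 ?_
  have hu0 : (0 : ℝ) ≤ 1 - 1 / d := by
    have h1 : (1 : ℝ) ≤ d := by exact_mod_cast hd1
    have h2 : 1 / (d : ℝ) ≤ 1 := by rw [div_le_one hdR]; exact h1
    linarith
  have h12 : (0 : ℝ) < 12 / ε ^ 2 := by positivity
  calc (1 - 1 / (d : ℝ)) ^ T ≤ (Real.exp (-(1 / (d : ℝ)))) ^ T :=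
        pow_le_pow_left₀ hu0 (Real.one_sub_le_exp_neg _) T
    _ = Real.exp (-((T : ℝ) / d)) := by
        rw [← Real.exp_nat_mul]; congr 1; ring
    _ ≤ Real.exp (-Real.log (12 / ε ^ 2)) := by
        apply Real.exp_le_exp.2
        have : Real.log (12 / ε ^ 2) ≤ (T : ℝ) / d := by
          rw [le_div_iff₀ hdR]; linarith
        linarith
    _ = ε ^ 2 / 12 := by
        rw [Real.exp_neg, Real.exp_log h12, inv_div]

end Vale.Agent.Results.P309.A1_LinearMemoryTradeoff
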