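import Vale.Agent.H83.Stream.KzFinal
import Vale.Agent.H83.Stream.Bound

namespace Vale.Agent.Results.P309.A2_KaczmarzAndSuccessBound

open Vale.Agent.H83.Stream

/-- Memory-bounded streaming learners in noiseless Gaussian linear regression, in dimension
`d ≥ 2` and for `0 < ε ≤ 1`: the upper bound by quantised Kaczmarz together with the bound for the
success probability and the memory threshold that follows from it.

(i) For all `M`, `T` with `2^M ≥ (27 d^(3/2)/ε)^d` and `T ≥ 2 d ln(24/ε²)` there is a learner with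
`M` bits and horizon `T` that succeeds at accuracy `ε`.

(ii) Every learner with `M` bits and horizon `T` has success probability at most
`2^(M+d+1) ε^(d-1)`.

(iii) Every learner with `M` bits (any horizon) that succeeds at accuracy `ε` has
`(1/ε)^(d-1) ≤ 3 · 2^(M+d)`. -/
theorem result (d : ℕ) (hd : 2 ≤ d) (ε : ℝ) (hε : 0 < ε) (hε1 : ε ≤ 1) :
    (∀ M T : ℕ, (27 * (d : ℝ) * Real.sqrt d / ε) ^ d ≤ 2 ^ M →
        2 * (d : ℝ) * Real.log (24 / ε ^ 2) ≤ T →
        ∃ L : Learner d M T, L.Succeeds ε) ∧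
    (∀ (M T : ℕ) (L : Learner d M T),
        L.successProb ε ≤ ENNReal.ofReal (2 ^ (M + d + 1) * ε ^ (d - 1))) ∧
    (∀ (M T : ℕ) (L : Learner d M T), L.Succeeds ε → (1 / ε) ^ (d - 1) ≤ 3 * 2 ^ (M + d)) :=
  ⟨fun _ _ hM hT => exists_learner_succeeds (by omega) hε hε1 hM hT,
   fun _ _ L => successProb_le (by omega) hε hε1 L,
   fun _ _ L hL => memory_of_succeeds (by omega) hε hε1 L hL⟩

end Vale.Agent.Results.P309.A2_KaczmarzAndSuccessBound
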