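import Vale.Agent.H83.Stream.Bound

namespace Vale.Agent.Results.P309.A_MemoryThreshold

open Vale.Agent.H83.Stream

/-- Output-size bound for memory-bounded streaming learners in noiseless Gaussian linear
regression. For every learner with `M` bits and any horizon `T` in dimension `d ≥ 2`, and every
`0 < ε ≤ 1`: the probability that the output is within angle `ε` of the uniform random signal is
at most `2^(M+d+1) ε^(d-1)`; hence a learner that succeeds at accuracy `ε` has
`(1/ε)^(d-1) ≤ 3 · 2^(M+d)`, that is `M ≥ (d-1) log₂(1/ε) - d - log₂ 3`. -/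
theorem result (d M T : ℕ) (hd : 2 ≤ d) (ε : ℝ) (hε : 0 < ε) (hε1 : ε ≤ 1) (L : Learner d M T) :
    L.successProb ε ≤ ENNReal.ofReal (2 ^ (M + d + 1) * ε ^ (d - 1)) ∧
    (L.Succeeds ε → (1 / ε) ^ (d - 1) ≤ 3 * 2 ^ (M + d)) :=
  ⟨successProb_le (by omega) hε hε1 L, memory_of_succeeds (by omega) hε hε1 L⟩

end Vale.Agent.Results.P309.A_MemoryThreshold
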